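import Mathlib

/-!
P290, F3-MEYER, piece (C): reduction of a totally isotropic rational subspace modulo `p`.
-/

namespace Vale.Agent.P290.Meyer

open Finset Module

/-- Clearing denominators of finitely many rational numbers. -/
lemma exists_clear {α : Type*} (s : Finset α) (f : α → ℚ) :
    ∃ N : ℤ, N ≠ 0 ∧ ∀ a ∈ s, ∃ z : ℤ, (z : ℚ) = N * f a := by
  classical
  induction s using Finset.induction_on with
  | empty => exact ⟨1, one_ne_zero, by simp⟩
  | insert a s ha ih =>
    obtain ⟨N, hN, h⟩ := ih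
    refine ⟨N * (f a).den, mul_ne_zero hN (by exact_mod_cast (f a).den_ne_zero), ?_⟩
    intro b hb
    rcases Finset.mem_insert.mp hb with rfl | hb
    · refine ⟨N * (f b).num, ?_⟩
      push_cast
      have := Rat.mul_den_eq_num (f b)
      rw [← this]; ring
    · obtain ⟨z, hz⟩ := h b hb
      refine ⟨z * (f a).den, ?_⟩
      push_cast
      rw [hz]; ring

variable {ι κ : Type} [Fintype ι] [Fintype κ]

/-- The inclusion of integral vectors into rational ones. -/
def cst (ι κ : Type) : ((ι → ℤ) × (κ → ℤ)) →ₗ[ℤ] ((ι → ℚ) × (κ → ℚ)) where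
  toFun x := (fun i => (x.1 i : ℚ), fun k => (x.2 k : ℚ))
  map_add' x y := by ext <;> simp
  map_smul' c x := by ext <;> simp

omit [Fintype ι] [Fintype κ] in
lemma cst_inj : Function.Injective (cst ι κ) := by
  intro x y h
  have h1 := congrArg Prod.fst h
  have h2 := congrArg Prod.snd h
  ext i
  · have := congrFun h1 i
    simpa [cst] using this
  · have := congrFun h2 i
    simpa [cst] using this

lemma exists_integral (x : (ι → ℚ) × (κ → ℚ)) :
    ∃ (N : ℤ) (z : (ι → ℤ) × (κ → ℤ)), N ≠ 0 ∧ cst ι κ z = (N : ℚ) • x := by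
  classical
  obtain ⟨N, hN, h⟩ := exists_clear (Finset.univ : Finset (ι ⊕ κ)) (Sum.elim x.1 x.2)
  choose z hz using fun a => h a (Finset.mem_univ a)
  refine ⟨N, (fun i => z (Sum.inl i), fun k => z (Sum.inr k)), hN, ?_⟩
  ext i
  · have := hz (Sum.inl i)
    simpa [cst] using this
  · have := hz (Sum.inr i)
    simpa [cst] using this

/-- The lattice of integral vectors in a rational subspace. -/
def lat (K : Submodule ℚ ((ι → ℚ) × (κ → ℚ))) : Submodule ℤ ((ι → ℤ) × (κ → ℤ)) :=
  (K.restrictScalars ℤ).comap (cst ι κ)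

omit [Fintype ι] [Fintype κ] in
lemma mem_lat {K : Submodule ℚ ((ι → ℚ) × (κ → ℚ))} {x : (ι → ℤ) × (κ → ℤ)} :
    x ∈ lat K ↔ cst ι κ x ∈ K := Iff.rfl

lemma finrank_le_lat (K : Submodule ℚ ((ι → ℚ) × (κ → ℚ))) :
    finrank ℚ K ≤ finrank ℤ (lat K) := by
  classical
  let b := Module.finBasis ℚ K
  choose N z hN hz using fun i => exists_integral ((b i : K) : (ι → ℚ) × (κ → ℚ))
  have hmem : ∀ i, z i ∈ lat K := by
    intro i
    rw [mem_lat, hz]
    exact K.smul_mem _ (b i).2
  have hli : LinearIndependent ℤ (fun i => (⟨z i, hmem i⟩ : lat K)) := by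
    rw [Fintype.linearIndependent_iff]
    intro c hc i
    have h1 : ∑ i, ((c i : ℚ) * N i) • b i = 0 := by
      apply Subtype.ext
      have h2 := congrArg (fun x : lat K => cst ι κ (x : (ι → ℤ) × (κ → ℤ))) hc
      simp only [AddSubmonoidClass.coe_finsetSum, SetLike.val_smul, map_sum, map_smul,
        ZeroMemClass.coe_zero, map_zero] at h2 ⊢
      rw [← h2]
      refine Finset.sum_congr rfl fun i _ => ?_
      rw [hz, mul_smul]
      exact (Int.cast_smul_eq_zsmul ℚ (c i) _)
    have h3 := (Fintype.linearIndependent_iff.mp b.linearIndependent) _ h1 i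
    rcases mul_eq_zero.mp h3 with h | h
    · exact_mod_cast h
    · exact absurd (by exact_mod_cast h) (hN i)
  have := hli.fintype_card_le_finrank
  simpa using this

/-- A totally isotropic family of independent vectors for a nondegenerate symmetric matrix over a
field has at most half the dimension. -/
lemma isotropic_le {F : Type*} [Field F] [DecidableEq ι] (M : Matrix ι ι F) (hM : M.IsSymm)
    (hdet : M.det ≠ 0) {r : ℕ} (v : Fin r → ι → F) (hv : LinearIndependent F v)
    (hiso : ∀ i j, v i ⬝ᵥ M.mulVec (v j) = 0) : 2 * r ≤ Fintype.card ι := by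
  classical
  set B : LinearMap.BilinForm F (ι → F) := Matrix.toBilin' M with hB
  have hnd : B.Nondegenerate := by
    rw [hB]
    exact LinearMap.BilinForm.nondegenerate_toBilin'_of_det_ne_zero' M hdet
  have hsymm : B.IsSymm := by
    refine ⟨fun x y => ?_⟩
    simp only [hB, Matrix.toBilin'_apply']
    rw [Matrix.dotProduct_mulVec, ← Matrix.mulVec_transpose, hM.eq, dotProduct_comm]
  set W := Submodule.span F (Set.range v) with hW
  have hr : finrank F W = r := by
    rw [hW, finrank_span_eq_card hv, Fintype.card_fin]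
  have hle : W ≤ B.orthogonal W := by
    intro x hx
    rw [LinearMap.BilinForm.mem_orthogonal_iff]
    intro y hy
    have h1 : ∀ i, ∀ y ∈ W, B y (v i) = 0 := by
      intro i y hy
      induction hy using Submodule.span_induction with
      | mem y hy =>
        obtain ⟨j, rfl⟩ := hy
        rw [hB, Matrix.toBilin'_apply']
        exact hiso j i
      | zero => simp
      | add y z _ _ h1 h2 => simp [h1, h2]
      | smul c y _ h => simp [h]
    show B y x = 0
    induction hx using Submodule.span_induction with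
    | mem x hx =>
      obtain ⟨i, rfl⟩ := hx
      exact h1 i y hy
    | zero => simp
    | add x z _ _ h1 h2 => simp [h1, h2]
    | smul c x _ h => simp [h]
  have h2 := LinearMap.BilinForm.finrank_orthogonal hnd W
  have h3 := Submodule.finrank_mono hle
  rw [h2, hr, Module.finrank_fintype_fun_eq_card] at h3
  have h4 : r ≤ Fintype.card ι := by
    have := hv.fintype_card_le_finrank
    simpa using this
  omega

/-- The reduction of a rational totally isotropic subspace for `M ⊥ p m` modulo `p`. -/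
theorem lagr {p : ℕ} (hp : p.Prime) {ι κ : Type} [Fintype ι] [Fintype κ] [DecidableEq ι]
    (M : Matrix ι ι ℤ) (hM : M.IsSymm) (hdet : ¬ (p : ℤ) ∣ M.det) (m : κ → ℤ)
    (han : ∀ t : κ → ℤ, (p : ℤ) ∣ ∑ k, m k * t k ^ 2 → ∀ k, (p : ℤ) ∣ t k)
    (K : Submodule ℚ ((ι → ℚ) × (κ → ℚ)))
    (hK : ∀ x ∈ K, ∀ y ∈ K, (∑ i, ∑ j, (M i j : ℚ) * x.1 i * y.1 j)
      + p * ∑ k, (m k : ℚ) * x.2 k * y.2 k = 0)
    (hdim : Fintype.card ι + Fintype.card κ ≤ 2 * Module.finrank ℚ K) : IsEmpty κ := by
  classical
  have := Fact.mk hp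
  have hp0 : (p : ℤ) ≠ 0 := by exact_mod_cast hp.ne_zero
  have hp0q : (p : ℚ) ≠ 0 := by exact_mod_cast hp.ne_zero
  -- the integral relation
  have hZ : ∀ x ∈ lat K, ∀ y ∈ lat K, (∑ i, ∑ j, M i j * x.1 i * y.1 j)
      + p * ∑ k, m k * x.2 k * y.2 k = 0 := by
    intro x hx y hy
    have := hK _ (mem_lat.mp hx) _ (mem_lat.mp hy)
    simp only [cst, LinearMap.coe_mk, AddHom.coe_mk] at this
    exact_mod_cast this
  -- kernel of the first projection modulo `p`
  have hker : ∀ x ∈ lat K, (∀ i, (p : ℤ) ∣ x.1 i) →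
      ∃ y ∈ lat K, x = (p : ℤ) • y := by
    intro x hx h1
    choose z hz using h1
    have h2 : ∀ k, (p : ℤ) ∣ x.2 k := by
      apply han
      refine ⟨-∑ i, ∑ j, M i j * z i * z j, ?_⟩
      have h3 := hZ x hx x hx
      have h4 : (∑ i, ∑ j, M i j * x.1 i * x.1 j) = (p : ℤ) * (p * ∑ i, ∑ j, M i j * z i * z j) := by
        rw [Finset.mul_sum, Finset.mul_sum]
        refine Finset.sum_congr rfl fun i _ => ?_
        rw [Finset.mul_sum, Finset.mul_sum]
        refine Finset.sum_congr rfl fun j _ => ?_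
        rw [hz i, hz j]; ring
      rw [h4, ← mul_add] at h3
      have h5 := (mul_eq_zero.mp h3).resolve_left hp0
      have h6 : ∑ k, m k * x.2 k ^ 2 = ∑ k, m k * x.2 k * x.2 k := by
        refine Finset.sum_congr rfl fun k _ => by ring
      rw [h6]
      linarith
    choose w hw using h2
    have hxy : x = (p : ℤ) • ((z, w) : (ι → ℤ) × (κ → ℤ)) := by
      ext i
      · simpa using hz i
      · simpa using hw i
    refine ⟨(z, w), ?_, hxy⟩
    rw [mem_lat]
    have h7 := mem_lat.mp hx
    rw [hxy, map_smul] at h7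
    have h8 : ((p : ℤ) • cst ι κ (z, w)) = (p : ℚ) • cst ι κ (z, w) := by
      have := Int.cast_smul_eq_zsmul ℚ (p : ℤ) (cst ι κ (z, w))
      rw [← this]; norm_cast
    rw [h8] at h7
    exact (K.smul_mem_iff hp0q).mp h7
  let b := Module.finBasis ℤ (lat K)
  set v : Fin (finrank ℤ (lat K)) → ι → ZMod p :=
    fun i j => (((b i : lat K) : (ι → ℤ) × (κ → ℤ)).1 j : ZMod p) with hv
  have hvli : LinearIndependent (ZMod p) v := by
    rw [Fintype.linearIndependent_iff]
    intro c hc i
    choose e he using fun i => ZMod.intCast_surjective (c i)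
    set x : lat K := ∑ i, e i • b i with hx
    have h1 : ∀ j, (p : ℤ) ∣ (x : (ι → ℤ) × (κ → ℤ)).1 j := by
      intro j
      rw [← ZMod.intCast_zmod_eq_zero_iff_dvd]
      have h2 := congrFun hc j
      rw [Finset.sum_apply] at h2
      rw [hx]
      simp only [AddSubmonoidClass.coe_finsetSum, SetLike.val_smul, Prod.fst_sum, Prod.smul_fst,
        Finset.sum_apply, Pi.smul_apply, smul_eq_mul, Int.cast_sum, Int.cast_mul]
      simp only [Pi.smul_apply, smul_eq_mul, Pi.zero_apply, hv] at h2
      rw [← h2]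
      refine Finset.sum_congr rfl fun i _ => by rw [he]
    obtain ⟨y, hy, hxy⟩ := hker x x.2 h1
    have h3 : x = (p : ℤ) • (⟨y, hy⟩ : lat K) := Subtype.ext hxy
    have h4 : e i = p * b.repr ⟨y, hy⟩ i := by
      have h5 := congrArg (fun z => b.repr z i) h3
      simp only [hx, map_sum, map_smul, Finsupp.coe_finsetSum, Finset.sum_apply,
        Finsupp.coe_smul, Pi.smul_apply, smul_eq_mul, Basis.repr_self] at h5
      rw [← h5]
      simp [Finsupp.single_apply]
    rw [← he i, h4]
    push_cast
    simp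
  have hdet' : (M.map (Int.cast : ℤ → ZMod p)).det ≠ 0 := by
    intro h
    apply hdet
    rw [← ZMod.intCast_zmod_eq_zero_iff_dvd]
    have := (Int.castRingHom (ZMod p)).map_det M
    simp only [RingHom.mapMatrix_apply, Int.coe_castRingHom] at this
    rw [this]; exact h
  have hiso : ∀ i j, v i ⬝ᵥ (M.map (Int.cast : ℤ → ZMod p)).mulVec (v j) = 0 := by
    intro i j
    have h1 := hZ (b i) (b i).2 (b j) (b j).2
    have h2 := congrArg (Int.cast : ℤ → ZMod p) h1
    simp only [Int.cast_add, Int.cast_sum, Int.cast_mul, Int.cast_natCast, ZMod.natCast_self,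
      zero_mul, add_zero, Int.cast_zero] at h2
    rw [← h2]
    simp only [dotProduct, Matrix.mulVec, Finset.mul_sum, hv, Matrix.map_apply]
    refine Finset.sum_congr rfl fun k _ => Finset.sum_congr rfl fun l _ => by ring
  have h9 := isotropic_le _ (hM.map _) hdet' v hvli hiso
  have h10 := finrank_le_lat K
  have h11 : Fintype.card κ = 0 := by omega
  exact Fintype.card_eq_zero_iff.mp h11

end Vale.Agent.P290.Meyer
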