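import Mathlib

/-!
P290, F3-MEYER, piece (A): the step from `p+1`-smooth to `p`-smooth coefficients (Gauss, Tate).
-/

namespace Vale.Agent.P290.Meyer

open Finset

/-- Nonzero integers all of whose prime factors are `< k`. -/
def Sm (k : ℕ) : Set ℤ := {m | m ≠ 0 ∧ ∀ q : ℕ, q.Prime → (q : ℤ) ∣ m → q < k}

lemma Sm_of_lt {k : ℕ} {m : ℤ} (h0 : m ≠ 0) (h : |m| < k) : m ∈ Sm k := by
  refine ⟨h0, fun q _ hqm => ?_⟩
  have h1 : (q : ℤ) ≤ |m| := Int.le_of_dvd (abs_pos.mpr h0) ((dvd_abs _ _).mpr hqm)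
  exact_mod_cast lt_of_le_of_lt h1 h

lemma Sm_mul {k : ℕ} {m n : ℤ} (hm : m ∈ Sm k) (hn : n ∈ Sm k) : m * n ∈ Sm k := by
  refine ⟨mul_ne_zero hm.1 hn.1, fun q hq hqm => ?_⟩
  rcases (Nat.prime_iff_prime_int.mp hq).dvd_or_dvd hqm with h | h
  · exact hm.2 q hq h
  · exact hn.2 q hq h

lemma Sm_neg {k : ℕ} {m : ℤ} (hm : m ∈ Sm k) : -m ∈ Sm k :=
  ⟨neg_ne_zero.mpr hm.1, fun q hq hqm => hm.2 q hq ((Int.dvd_neg).mp hqm)⟩

lemma Sm_of_dvd {k : ℕ} {m n : ℤ} (hn : n ∈ Sm k) (h : m ∣ n) : m ∈ Sm k := by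
  refine ⟨fun h0 => hn.1 (by rw [h0] at h; exact zero_dvd_iff.mp h), fun q hq hqm => ?_⟩
  exact hn.2 q hq (hqm.trans h)

lemma Sm_not_dvd {p : ℕ} (hp : p.Prime) {m : ℤ} (hm : m ∈ Sm p) : ¬ (p : ℤ) ∣ m :=
  fun h => lt_irrefl _ (hm.2 p hp h)

section

variable {A : Type*} [AddCommGroup A] (f : ℤ → A)
  (hneg : ∀ c ≠ 0, f (-c) = -f c)
  (hsq : ∀ c s, c ≠ 0 → s ≠ 0 → f (c * s ^ 2) = f c)
  (hadd : ∀ a b, a ≠ 0 → b ≠ 0 → a + b ≠ 0 → f a + f b = f (a + b) + f (a * b * (a + b)))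
  {p : ℕ} (hp : p.Prime)

/-- The subgroup generated by the `p`-smooth integers. -/
def AA (f : ℤ → A) (p : ℕ) : AddSubgroup A := AddSubgroup.closure (f '' Sm p)

lemma mem_AA {p : ℕ} {m : ℤ} (hm : m ∈ Sm p) : f m ∈ AA f p :=
  AddSubgroup.subset_closure ⟨m, hm, rfl⟩

include hsq hadd hp in
/-- The basic step: `n r ≡ n r mod p`. -/
lemma step {s n r : ℤ} (hs : s ∈ Sm p) (hn0 : n ≠ 0) (hn : |n| < p) (hr0 : r ≠ 0) (hr : |r| < p) :
    f (p * (s * (n * r))) - f (p * (s * ((n * r) % p))) ∈ AA f p := by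
  have hp0 : (p : ℤ) ≠ 0 := by exact_mod_cast hp.ne_zero
  have hppos : (0 : ℤ) < p := by exact_mod_cast hp.pos
  have hnS := Sm_of_lt hn0 hn
  have hrS := Sm_of_lt hr0 hr
  have hnrS := Sm_mul hnS hrS
  set m0 := (n * r) % p with hm0
  set k := (n * r) / p with hk
  have hdiv : n * r = m0 + k * p := by
    rw [hm0, hk]; exact (Int.emod_add_ediv_mul (n * r) p).symm
  have hm0nn : 0 ≤ m0 := Int.emod_nonneg _ hp0
  have hm0lt : m0 < p := Int.emod_lt_of_pos _ hppos
  have hm0ne : m0 ≠ 0 := by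
    intro h
    apply Sm_not_dvd hp hnrS
    exact Int.dvd_of_emod_eq_zero h
  have hm0S : m0 ∈ Sm p := Sm_of_lt hm0ne (by rw [abs_of_nonneg hm0nn]; exact hm0lt)
  by_cases hk0 : k = 0
  · rw [hk0, zero_mul, add_zero] at hdiv
    rw [hdiv, sub_self]
    exact (AA f p).zero_mem
  have hkS : k ∈ Sm p := by
    apply Sm_of_lt hk0
    have h1 : |n * r| ≤ (p - 1) * (p - 1) := by
      rw [abs_mul]
      apply mul_le_mul (by omega) (by omega) (abs_nonneg _) (by omega)
    have h2 : k * p = n * r - m0 := by rw [hdiv]; ring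
    rw [abs_lt]
    have h3 := abs_le.mp h1
    constructor
    · by_contra hcon
      have : k ≤ -p := by omega
      have h4 : k * p ≤ -p * p := by nlinarith
      nlinarith
    · by_contra hcon
      have : (p : ℤ) ≤ k := by omega
      have h4 : (p : ℤ) * p ≤ k * p := by nlinarith
      nlinarith
  have hs0 := hs.1
  have e1 := hadd (p * (s * m0)) (s * k * p ^ 2)
    (mul_ne_zero hp0 (mul_ne_zero hs0 hm0ne)) (mul_ne_zero (mul_ne_zero hs0 hk0) (pow_ne_zero _ hp0))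
    (by
      have : (p : ℤ) * (s * m0) + s * k * p ^ 2 = p * (s * (n * r)) := by rw [hdiv]; ring
      rw [this]
      exact mul_ne_zero hp0 (mul_ne_zero hs0 hnrS.1))
  have e2 : (p : ℤ) * (s * m0) + s * k * p ^ 2 = p * (s * (n * r)) := by rw [hdiv]; ring
  rw [e2, hsq (s * k) p (mul_ne_zero hs0 hk0) hp0] at e1
  have e3 : (p : ℤ) * (s * m0) * (s * k * p ^ 2) * (p * (s * (n * r)))
      = (s * (s * s) * m0 * k * (n * r)) * (p ^ 2) ^ 2 := by ring
  have hbig : s * (s * s) * m0 * k * (n * r) ∈ Sm p :=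
    Sm_mul (Sm_mul (Sm_mul (Sm_mul hs (Sm_mul hs hs)) hm0S) hkS) hnrS
  rw [e3, hsq _ _ hbig.1 (pow_ne_zero _ hp0)] at e1
  have e4 : f (p * (s * (n * r))) - f (p * (s * m0))
      = f (s * k) - f (s * (s * s) * m0 * k * (n * r)) := by
    rw [sub_eq_sub_iff_add_eq_add, ← e1]; abel
  rw [e4]
  exact (AA f p).sub_mem (mem_AA f (Sm_mul hs hkS)) (mem_AA f hbig)

include hsq hadd hp in
/-- Modulo `AA f p`, the class of `f (p m)` depends only on `m mod p`. -/
lemma red_emod : ∀ m ∈ Sm p, f (p * m) - f (p * (m % p)) ∈ AA f p := by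
  have hp0 : (p : ℤ) ≠ 0 := by exact_mod_cast hp.ne_zero
  have hppos : (0 : ℤ) < p := by exact_mod_cast hp.pos
  have hp1 : 1 < (p : ℤ) := by exact_mod_cast hp.one_lt
  -- the stronger statement for a product `s * n`
  have key : ∀ N : ℕ, ∀ s : ℤ, s.natAbs = N → s ∈ Sm p → ∀ n : ℤ, n ≠ 0 → |n| < p →
      f (p * (s * n)) - f (p * ((s * n) % p)) ∈ AA f p := by
    intro N
    induction N using Nat.strong_induction_on with
    | _ N ih =>
      intro s hsN hs n hn0 hn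
      by_cases hN1 : N = 1
      · have h1 : |s| < p := by
          have : |s| = 1 := by
            rw [Int.abs_eq_natAbs, hsN, hN1]; rfl
          rw [this]; exact hp1
        have h2 := step f hsq hadd hp (s := 1) (Sm_of_lt one_ne_zero (by simpa using hp1))
          hs.1 h1 hn0 hn
        simpa using h2
      · have hN0 : s.natAbs ≠ 1 := by rw [hsN]; exact hN1
        obtain ⟨q, hq, hqs⟩ := Nat.exists_prime_and_dvd hN0
        have hqs' : (q : ℤ) ∣ s := Int.natCast_dvd.mpr hqs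
        obtain ⟨s', rfl⟩ := hqs'
        have hs' : s' ∈ Sm p := Sm_of_dvd hs (Dvd.intro_left _ rfl)
        have hqp : q < p := hs.2 q hq (Dvd.intro _ rfl)
        have hq0 : (q : ℤ) ≠ 0 := by exact_mod_cast hq.ne_zero
        have hqa : |(q : ℤ)| < p := by
          rw [abs_of_nonneg (by positivity)]; exact_mod_cast hqp
        have hlt : s'.natAbs < N := by
          rw [← hsN, Int.natAbs_mul, Int.natAbs_natCast]
          have h1 : 0 < s'.natAbs := Int.natAbs_pos.mpr hs'.1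
          have h2 := hq.one_lt
          nlinarith
        have h3 := step f hsq hadd hp hs' hq0 hqa hn0 hn
        have hm0nn : 0 ≤ ((q : ℤ) * n) % p := Int.emod_nonneg _ hp0
        have hm0lt : ((q : ℤ) * n) % p < p := Int.emod_lt_of_pos _ hppos
        have hm0ne : ((q : ℤ) * n) % p ≠ 0 := by
          intro h
          apply Sm_not_dvd hp (Sm_mul (Sm_of_lt hq0 hqa) (Sm_of_lt hn0 hn))
          exact Int.dvd_of_emod_eq_zero h
        have h4 := ih _ hlt s' rfl hs' (((q : ℤ) * n) % p) hm0ne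
          (by rw [abs_of_nonneg hm0nn]; exact hm0lt)
        have h5 : (s' * (((q : ℤ) * n) % p)) % p = ((q : ℤ) * s' * n) % p := by
          rw [Int.mul_emod, Int.emod_emod_of_dvd _ (dvd_refl _), ← Int.mul_emod]
          congr 1; ring
        rw [h5] at h4
        have h6 := (AA f p).add_mem h3 h4
        rw [sub_add_sub_cancel] at h6
        rw [show (q : ℤ) * s' * n = s' * (q * n) by ring] at h6 ⊢
        exact h6
  intro m hm
  have := key _ m rfl hm 1 one_ne_zero (by simpa using hp1)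
  simpa using this

/-- The class of `f (p m)` modulo `AA f p` as a function of `m mod p`. -/
noncomputable def psi (f : ℤ → A) (p : ℕ) (u : ZMod p) : A ⧸ AA f p :=
  QuotientAddGroup.mk (f (p * (u.val : ℤ)))

include hsq hadd hp in
lemma psi_int {m : ℤ} (hm : m ∈ Sm p) :
    (QuotientAddGroup.mk (f (p * m)) : A ⧸ AA f p) = psi f p (m : ZMod p) := by
  have := Fact.mk hp
  unfold psi
  rw [ZMod.val_intCast, QuotientAddGroup.eq]
  have h := red_emod f hsq hadd hp m hm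
  rw [show -f (p * m) + f (p * (m % p)) = -(f (p * m) - f (p * (m % p))) by abel]
  exact (AA f p).neg_mem h

include hp in
omit [AddCommGroup A] in
lemma val_Sm {u : ZMod p} (hu : u ≠ 0) : (u.val : ℤ) ∈ Sm p := by
  have := Fact.mk hp
  apply Sm_of_lt
  · intro h
    apply hu
    rw [← ZMod.natCast_zmod_val u]
    have h1 : u.val = 0 := by exact_mod_cast h
    rw [h1]; simp
  · rw [abs_of_nonneg (by positivity)]
    exact_mod_cast ZMod.val_lt u

include hp in
omit [AddCommGroup A] in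
lemma val_cast (u : ZMod p) : (((u.val : ℕ) : ℤ) : ZMod p) = u := by
  have := Fact.mk hp
  simp

include hsq hadd hp in
lemma psi_sq {u c : ZMod p} (hu : u ≠ 0) (hc : c ≠ 0) : psi f p (u * c ^ 2) = psi f p u := by
  have := Fact.mk hp
  have hp0 : (p : ℤ) ≠ 0 := by exact_mod_cast hp.ne_zero
  have h1 := val_Sm hp hu
  have h2 := val_Sm hp hc
  have h3 : u * c ^ 2 = (((u.val : ℤ) * ((c.val : ℤ) * (c.val : ℤ)) : ℤ) : ZMod p) := by
    rw [Int.cast_mul, Int.cast_mul, val_cast hp, val_cast hp]; ring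
  conv_lhs => rw [h3]
  rw [← psi_int f hsq hadd hp (Sm_mul h1 (Sm_mul h2 h2))]
  unfold psi
  rw [show (p : ℤ) * ((u.val : ℤ) * ((c.val : ℤ) * (c.val : ℤ)))
    = (p * (u.val : ℤ)) * (c.val : ℤ) ^ 2 by ring, hsq _ _ (mul_ne_zero hp0 h1.1) h2.1]

include hneg hsq hadd hp in
lemma psi_neg {u : ZMod p} (hu : u ≠ 0) : psi f p (-u) = - psi f p u := by
  have := Fact.mk hp
  have hp0 : (p : ℤ) ≠ 0 := by exact_mod_cast hp.ne_zero
  have h1 := val_Sm hp hu
  have h3 : -u = ((-(u.val : ℤ) : ℤ) : ZMod p) := by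
    rw [Int.cast_neg, val_cast hp]
  conv_lhs => rw [h3]
  rw [← psi_int f hsq hadd hp (Sm_neg h1)]
  unfold psi
  rw [mul_neg, hneg _ (mul_ne_zero hp0 h1.1)]
  rfl

include hsq hadd hp in
lemma psi_add {u v : ZMod p} (hu : u ≠ 0) (hv : v ≠ 0) (huv : u + v ≠ 0) :
    psi f p u + psi f p v = psi f p (u + v) + psi f p (u * v * (u + v)) := by
  have := Fact.mk hp
  have hp0 : (p : ℤ) ≠ 0 := by exact_mod_cast hp.ne_zero
  have h1 := val_Sm hp hu
  have hv1 : (0 : ℤ) < v.val := by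
    have := (val_Sm hp hv).1
    omega
  have hv2 : (v.val : ℤ) < p := by exact_mod_cast ZMod.val_lt v
  have hu1 : (0 : ℤ) < u.val := by
    have := (val_Sm hp hu).1
    omega
  have hu2 : (u.val : ℤ) < p := by exact_mod_cast ZMod.val_lt u
  obtain ⟨a, ha⟩ : ∃ a : ℤ, a = ((u.val : ℕ) : ℤ) := ⟨_, rfl⟩
  obtain ⟨b, hb⟩ : ∃ b : ℤ, b = ((v.val : ℕ) : ℤ) - p := ⟨_, rfl⟩
  rw [← ha] at h1 hu1 hu2
  have hac : ((a : ℤ) : ZMod p) = u := by rw [ha]; exact val_cast hp u
  have hbc : ((b : ℤ) : ZMod p) = v := by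
    rw [hb, Int.cast_sub, val_cast hp]; simp
  have hbS : b ∈ Sm p := Sm_of_lt (by omega) (by rw [abs_lt]; constructor <;> omega)
  have habc : ((a + b : ℤ) : ZMod p) = u + v := by rw [Int.cast_add, hac, hbc]
  have habS : a + b ∈ Sm p := by
    apply Sm_of_lt
    · intro h
      apply huv
      rw [← habc, h]; simp
    · rw [abs_lt]; constructor <;> omega
  have hS3 := Sm_mul (Sm_mul h1 hbS) habS
  have e := hadd (p * a) (p * b) (mul_ne_zero hp0 h1.1) (mul_ne_zero hp0 hbS.1)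
    (by rw [← mul_add]; exact mul_ne_zero hp0 habS.1)
  rw [← mul_add, show (p : ℤ) * a * (p * b) * (p * (a + b)) = (p * (a * b * (a + b))) * p ^ 2 by
    ring, hsq _ _ (mul_ne_zero hp0 hS3.1) hp0] at e
  have e1 := congrArg (QuotientAddGroup.mk (s := AA f p)) e
  rw [QuotientAddGroup.mk_add, QuotientAddGroup.mk_add, psi_int f hsq hadd hp h1,
    psi_int f hsq hadd hp hbS, psi_int f hsq hadd hp habS, psi_int f hsq hadd hp hS3] at e1
  rw [Int.cast_mul, Int.cast_mul, habc, hac, hbc] at e1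
  exact e1

include hp in
omit [AddCommGroup A] in
lemma exists_two_sq {u v w : ZMod p} (hu : u ≠ 0) (hv : v ≠ 0) :
    ∃ x y : ZMod p, u * x ^ 2 + v * y ^ 2 = w := by
  have := Fact.mk hp
  rcases hp.eq_two_or_odd with h2 | hodd
  · subst h2
    revert u v w
    decide
  · obtain ⟨x, y, h⟩ := FiniteField.exists_root_sum_quadratic (R := ZMod p)
      (f := Polynomial.C u * Polynomial.X ^ 2) (g := Polynomial.C v * Polynomial.X ^ 2 +
        Polynomial.C (-w)) (Polynomial.degree_C_mul_X_pow 2 hu) (by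
          rw [Polynomial.degree_add_C (by rw [Polynomial.degree_C_mul_X_pow 2 hv]; decide)]
          exact Polynomial.degree_C_mul_X_pow 2 hv) (by rw [ZMod.card]; exact hodd)
    refine ⟨x, y, ?_⟩
    simp only [Polynomial.eval_mul, Polynomial.eval_C, Polynomial.eval_pow, Polynomial.eval_X,
      Polynomial.eval_add] at h
    linear_combination h

include hneg hsq hadd hp in
/-- Three terms collapse to one. -/
lemma three {u v w : ZMod p} (hu : u ≠ 0) (hv : v ≠ 0) (hw : w ≠ 0) :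
    ∃ z : ZMod p, z ≠ 0 ∧ psi f p u + psi f p v + psi f p w = psi f p z := by
  have := Fact.mk hp
  obtain ⟨x, y, hxy⟩ := exists_two_sq hp (w := -w) hu hv
  have hnw := psi_neg f hneg hsq hadd hp hw
  by_cases hx : x = 0
  · have hy : y ≠ 0 := by
      rintro rfl
      rw [hx] at hxy
      apply hw
      have : -w = 0 := by rw [← hxy]; ring
      exact neg_eq_zero.mp this
    refine ⟨u, hu, ?_⟩
    have h1 : v * y ^ 2 = -w := by rw [← hxy, hx]; ring
    have h2 : psi f p v = - psi f p w := by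
      rw [← psi_sq f hsq hadd hp hv hy, h1, hnw]
    rw [h2]; abel
  · by_cases hy : y = 0
    · refine ⟨v, hv, ?_⟩
      have h1 : u * x ^ 2 = -w := by rw [← hxy, hy]; ring
      have h2 : psi f p u = - psi f p w := by
        rw [← psi_sq f hsq hadd hp hu hx, h1, hnw]
      rw [h2]; abel
    · have hux : u * x ^ 2 ≠ 0 := mul_ne_zero hu (pow_ne_zero _ hx)
      have hvy : v * y ^ 2 ≠ 0 := mul_ne_zero hv (pow_ne_zero _ hy)
      have hs : u * x ^ 2 + v * y ^ 2 ≠ 0 := by rw [hxy]; exact neg_ne_zero.mpr hw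
      refine ⟨(u * x ^ 2) * (v * y ^ 2) * (u * x ^ 2 + v * y ^ 2),
        mul_ne_zero (mul_ne_zero hux hvy) hs, ?_⟩
      have h1 := psi_add f hsq hadd hp hux hvy hs
      rw [psi_sq f hsq hadd hp hu hx, psi_sq f hsq hadd hp hv hy] at h1
      rw [h1]
      conv_lhs => rw [hxy, hnw]
      rw [hxy]; abel

include hneg hsq hadd hp in
/-- Normal form of the classes generated by `psi`. -/
lemma normal_form (x : A ⧸ AA f p)
    (hx : x ∈ AddSubgroup.closure {y | ∃ u : ZMod p, u ≠ 0 ∧ y = psi f p u}) :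
    x = 0 ∨ (∃ u : ZMod p, u ≠ 0 ∧ x = psi f p u) ∨
      ∃ u v : ZMod p, u ≠ 0 ∧ v ≠ 0 ∧ x = psi f p u + psi f p v := by
  have hone : ∀ x : A ⧸ AA f p, ∀ w : ZMod p, w ≠ 0 → (x = 0 ∨
      (∃ u : ZMod p, u ≠ 0 ∧ x = psi f p u) ∨
      ∃ u v : ZMod p, u ≠ 0 ∧ v ≠ 0 ∧ x = psi f p u + psi f p v) →
      (x + psi f p w = 0 ∨ (∃ u : ZMod p, u ≠ 0 ∧ x + psi f p w = psi f p u) ∨
      ∃ u v : ZMod p, u ≠ 0 ∧ v ≠ 0 ∧ x + psi f p w = psi f p u + psi f p v) := by
    rintro x w hw (rfl | ⟨u, hu, rfl⟩ | ⟨u, v, hu, hv, rfl⟩)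
    · exact Or.inr (Or.inl ⟨w, hw, by simp⟩)
    · exact Or.inr (Or.inr ⟨u, w, hu, hw, rfl⟩)
    · obtain ⟨z, hz, h⟩ := three f hneg hsq hadd hp hu hv hw
      exact Or.inr (Or.inl ⟨z, hz, h⟩)
  have hadd' : ∀ x y : A ⧸ AA f p, (x = 0 ∨
      (∃ u : ZMod p, u ≠ 0 ∧ x = psi f p u) ∨
      ∃ u v : ZMod p, u ≠ 0 ∧ v ≠ 0 ∧ x = psi f p u + psi f p v) →
      (y = 0 ∨ (∃ u : ZMod p, u ≠ 0 ∧ y = psi f p u) ∨
      ∃ u v : ZMod p, u ≠ 0 ∧ v ≠ 0 ∧ y = psi f p u + psi f p v) →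
      (x + y = 0 ∨ (∃ u : ZMod p, u ≠ 0 ∧ x + y = psi f p u) ∨
      ∃ u v : ZMod p, u ≠ 0 ∧ v ≠ 0 ∧ x + y = psi f p u + psi f p v) := by
    intro x y hx hy
    rcases hy with rfl | ⟨u, hu, rfl⟩ | ⟨u, v, hu, hv, rfl⟩
    · rwa [add_zero]
    · exact hone x u hu hx
    · rw [← add_assoc]
      exact hone _ v hv (hone x u hu hx)
  induction hx using AddSubgroup.closure_induction with
  | mem x hx =>
    obtain ⟨u, hu, rfl⟩ := hx
    exact Or.inr (Or.inl ⟨u, hu, rfl⟩)
  | zero => exact Or.inl rfl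
  | add x y _ _ h1 h2 => exact hadd' x y h1 h2
  | neg x _ h =>
    rcases h with rfl | ⟨u, hu, rfl⟩ | ⟨u, v, hu, hv, rfl⟩
    · exact Or.inl neg_zero
    · exact Or.inr (Or.inl ⟨-u, neg_ne_zero.mpr hu, (psi_neg f hneg hsq hadd hp hu).symm⟩)
    · refine Or.inr (Or.inr ⟨-u, -v, neg_ne_zero.mpr hu, neg_ne_zero.mpr hv, ?_⟩)
      rw [psi_neg f hneg hsq hadd hp hu, psi_neg f hneg hsq hadd hp hv]; abel

include hsq hadd hp in
/-- Classes of `p+1`-smooth integers. -/
lemma mem_psi {m : ℤ} (hm : m ∈ Sm (p + 1)) :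
    (QuotientAddGroup.mk (f m) : A ⧸ AA f p) = 0 ∨
      ∃ u : ZMod p, u ≠ 0 ∧ (QuotientAddGroup.mk (f m) : A ⧸ AA f p) = psi f p u := by
  have := Fact.mk hp
  have hp0 : (p : ℤ) ≠ 0 := by exact_mod_cast hp.ne_zero
  obtain ⟨c, hc⟩ := padicValInt_dvd (p := p) m
  set e := padicValInt p m with he
  have hc0 : c ≠ 0 := by rintro rfl; exact hm.1 (by rw [hc, mul_zero])
  have hpc : ¬ (p : ℤ) ∣ c := by
    rintro ⟨d, rfl⟩
    have h1 : (p : ℤ) ^ (e + 1) ∣ m := ⟨d, by rw [hc]; ring⟩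
    rw [padicValInt_dvd_iff] at h1
    rcases h1 with h1 | h1
    · exact hm.1 h1
    · omega
  have hcS : c ∈ Sm p := by
    refine ⟨hc0, fun q hq hqc => ?_⟩
    have h1 := hm.2 q hq (by rw [hc]; exact Dvd.dvd.mul_left hqc _)
    have h2 : q ≠ p := by rintro rfl; exact hpc hqc
    omega
  rcases Nat.even_or_odd' e with ⟨k, hk | hk⟩
  · left
    have h1 : f m = f c := by
      rw [hc, hk, show (p : ℤ) ^ (2 * k) * c = c * (p ^ k) ^ 2 by ring,
        hsq _ _ hc0 (pow_ne_zero _ hp0)]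
    rw [h1, QuotientAddGroup.eq_zero_iff]
    exact mem_AA f hcS
  · right
    refine ⟨(c : ZMod p), ?_, ?_⟩
    · intro h
      exact hpc ((ZMod.intCast_zmod_eq_zero_iff_dvd c p).mp h)
    · have h1 : f m = f (p * c) := by
        rw [hc, hk, show (p : ℤ) ^ (2 * k + 1) * c = (p * c) * (p ^ k) ^ 2 by ring,
          hsq _ _ (mul_ne_zero hp0 hc0) (pow_ne_zero _ hp0)]
      rw [h1, psi_int f hsq hadd hp hcS]

include hneg hsq hadd hp in
/-- Piece (A). -/
theorem red (w : A) (hw : w ∈ AddSubgroup.closure (f '' Sm (p + 1))) :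
    ∃ ms : List ℤ, (∀ m ∈ ms, m ∈ Sm p) ∧
      (∀ t : Fin ms.length → ℤ, (p : ℤ) ∣ ∑ i, ms.get i * t i ^ 2 → ∀ i, (p : ℤ) ∣ t i) ∧
      w - (ms.map fun m => f (p * m)).sum ∈ AddSubgroup.closure (f '' Sm p) := by
  have := Fact.mk hp
  have hprime := Nat.prime_iff_prime_int.mp hp
  have h0 : (QuotientAddGroup.mk w : A ⧸ AA f p) ∈
      AddSubgroup.closure {y | ∃ u : ZMod p, u ≠ 0 ∧ y = psi f p u} := by
    induction hw using AddSubgroup.closure_induction with
    | mem x hx =>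
      obtain ⟨m, hm, rfl⟩ := hx
      rcases mem_psi f hsq hadd hp hm with h | ⟨u, hu, h⟩
      · rw [h]; exact AddSubgroup.zero_mem _
      · rw [h]; exact AddSubgroup.subset_closure ⟨u, hu, rfl⟩
    | zero => exact AddSubgroup.zero_mem _
    | add x y _ _ h1 h2 => rw [QuotientAddGroup.mk_add]; exact AddSubgroup.add_mem _ h1 h2
    | neg x _ h => rw [QuotientAddGroup.mk_neg]; exact AddSubgroup.neg_mem _ h
  have hend : ∀ s : A, (QuotientAddGroup.mk w : A ⧸ AA f p) = QuotientAddGroup.mk s →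
      w - s ∈ AddSubgroup.closure (f '' Sm p) := by
    intro s hs
    rw [QuotientAddGroup.eq] at hs
    have := (AA f p).neg_mem hs
    rwa [neg_add_rev, neg_neg, add_comm, ← sub_eq_add_neg] at this
  rcases normal_form f hneg hsq hadd hp _ h0 with h | ⟨u, hu, h⟩ | ⟨u, v, hu, hv, h⟩
  · refine ⟨[], by simp, fun t _ i => i.elim0, ?_⟩
    simp only [List.map_nil, List.sum_nil]
    exact hend 0 (by rw [h]; rfl)
  · refine ⟨[(u.val : ℤ)], ?_, ?_, ?_⟩
    · intro m hm
      rw [List.mem_singleton] at hm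
      rw [hm]; exact val_Sm hp hu
    · intro t ht i
      have h1 : (p : ℤ) ∣ (u.val : ℤ) * t 0 ^ 2 := by
        simpa using ht
      rcases hprime.dvd_or_dvd h1 with h2 | h2
      · exact absurd h2 (Sm_not_dvd hp (val_Sm hp hu))
      · have h3 := hprime.dvd_of_dvd_pow h2
        have : i = 0 := Fin.eq_zero i
        rw [this]; exact h3
    · simp only [List.map_cons, List.map_nil, List.sum_cons, List.sum_nil, add_zero]
      exact hend _ h
  · by_cases hiso : ∃ x y : ZMod p, x ≠ 0 ∧ y ≠ 0 ∧ u * x ^ 2 + v * y ^ 2 = 0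
    · obtain ⟨x, y, hx, hy, hxy⟩ := hiso
      refine ⟨[], by simp, fun t _ i => i.elim0, ?_⟩
      simp only [List.map_nil, List.sum_nil]
      apply hend 0
      have h1 : v * y ^ 2 = -(u * x ^ 2) := by linear_combination hxy
      have h2 : psi f p v = - psi f p u := by
        rw [← psi_sq f hsq hadd hp hv hy, h1,
          psi_neg f hneg hsq hadd hp (mul_ne_zero hu (pow_ne_zero _ hx)),
          psi_sq f hsq hadd hp hu hx]
      rw [h, h2, add_neg_cancel]; rfl
    · refine ⟨[(u.val : ℤ), (v.val : ℤ)], ?_, ?_, ?_⟩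
      · intro m hm
        rcases List.mem_cons.mp hm with hm | hm
        · rw [hm]; exact val_Sm hp hu
        · rw [List.mem_singleton] at hm
          rw [hm]; exact val_Sm hp hv
      · intro t ht
        have h1 : (p : ℤ) ∣ (u.val : ℤ) * t 0 ^ 2 + (v.val : ℤ) * t 1 ^ 2 := by
          have h2 : ∑ i : Fin ([(u.val : ℤ), (v.val : ℤ)] : List ℤ).length,
              ([(u.val : ℤ), (v.val : ℤ)] : List ℤ).get i * t i ^ 2
              = (u.val : ℤ) * t 0 ^ 2 + (v.val : ℤ) * t 1 ^ 2 :=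
            Fin.sum_univ_two (fun i : Fin 2 => ([(u.val : ℤ), (v.val : ℤ)] : List ℤ).get i
              * t i ^ 2)
          rwa [h2] at ht
        have h3 : u * (t 0 : ZMod p) ^ 2 + v * (t 1 : ZMod p) ^ 2 = 0 := by
          have h4 := (ZMod.intCast_zmod_eq_zero_iff_dvd _ p).mpr h1
          rw [Int.cast_add, Int.cast_mul, Int.cast_mul, val_cast hp, val_cast hp, Int.cast_pow,
            Int.cast_pow] at h4
          exact h4
        have h5 : ((t 0 : ℤ) : ZMod p) = 0 ∧ ((t 1 : ℤ) : ZMod p) = 0 := by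
          by_cases hx : ((t 0 : ℤ) : ZMod p) = 0
          · refine ⟨hx, ?_⟩
            rw [hx] at h3
            have h6 : v * ((t 1 : ℤ) : ZMod p) ^ 2 = 0 := by linear_combination h3
            exact pow_eq_zero_iff (two_ne_zero) |>.mp ((mul_eq_zero.mp h6).resolve_left hv)
          · by_cases hy : ((t 1 : ℤ) : ZMod p) = 0
            · rw [hy] at h3
              have h6 : u * ((t 0 : ℤ) : ZMod p) ^ 2 = 0 := by linear_combination h3
              exact absurd (pow_eq_zero_iff (two_ne_zero) |>.mp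
                ((mul_eq_zero.mp h6).resolve_left hu)) hx
            · exact absurd ⟨_, _, hx, hy, h3⟩ hiso
        have h7 := (ZMod.intCast_zmod_eq_zero_iff_dvd _ p).mp h5.1
        have h8 := (ZMod.intCast_zmod_eq_zero_iff_dvd _ p).mp h5.2
        intro i
        have hi : i = (0 : Fin 2) ∨ i = (1 : Fin 2) := by
          have : ∀ i : Fin 2, i = 0 ∨ i = 1 := by decide
          exact this i
        rcases hi with rfl | rfl
        · exact h7
        · exact h8
      · simp only [List.map_cons, List.map_nil, List.sum_cons, List.sum_nil, add_zero]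
        apply hend
        rw [h]
        rfl

end

end Vale.Agent.P290.Meyer
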