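import Mathlib

/-!
P290, F3-MEYER, definitions.

Explicit Hilbert symbols on nonzero integers and solvability of `a x^2 + b y^2 = z^2`.
-/

namespace Vale.Agent.P290.Meyer

/-- Nontrivial solvability of `a x^2 + b y^2 = z^2` in the field `K`. -/
def Sol (K : Type*) [Field K] (a b : K) : Prop :=
  ∃ x y z : K, ¬ (x = 0 ∧ y = 0 ∧ z = 0) ∧ a * x ^ 2 + b * y ^ 2 = z ^ 2

/-- The part of `a` prime to `p`. -/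
def uP (p : ℕ) (a : ℤ) : ℤ := a / (p : ℤ) ^ padicValInt p a

/-- The symbol `(u,v) ↦ (-1)^(eps(u) eps(v))` on odd integers. -/
def e4 (u v : ℤ) : ℤ := if ZMod.χ₄ (u : ZMod 4) = 1 then 1 else ZMod.χ₄ (v : ZMod 4)

/-- The explicit Hilbert symbol at the prime `p`. -/
def hil (p : ℕ) (a b : ℤ) : ℤ :=
  if p = 2 then
    e4 (uP 2 a) (uP 2 b) * ZMod.χ₈ ((uP 2 b : ℤ) : ZMod 8) ^ padicValInt 2 a
      * ZMod.χ₈ ((uP 2 a : ℤ) : ZMod 8) ^ padicValInt 2 b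
  else
    jacobiSym (-1) p ^ (padicValInt p a * padicValInt p b)
      * jacobiSym (uP p b) p ^ padicValInt p a * jacobiSym (uP p a) p ^ padicValInt p b

/-- The Hilbert symbol at infinity. -/
def hilInf (a b : ℤ) : ℤ := if a < 0 ∧ b < 0 then -1 else 1

/-- M1 (a): values. -/
def M1_vals : Prop := ∀ (p : ℕ) (a b : ℤ), p.Prime → a ≠ 0 → b ≠ 0 → hil p a b = 1 ∨ hil p a b = -1

/-- M1 (b): bilinearity. -/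
def M1_mul : Prop := ∀ (p : ℕ) (a a' b : ℤ), p.Prime → a ≠ 0 → a' ≠ 0 → b ≠ 0 →
  hil p (a * a') b = hil p a b * hil p a' b

/-- M1 (c): symmetry. -/
def M1_symm : Prop := ∀ (p : ℕ) (a b : ℤ), p.Prime → a ≠ 0 → b ≠ 0 → hil p a b = hil p b a

/-- M1 (d): `(a,-a) = 1`. -/
def M1_neg : Prop := ∀ (p : ℕ) (a : ℤ), p.Prime → a ≠ 0 → hil p a (-a) = 1

/-- M1 (e): product formula. -/
def M1_prod : Prop := ∀ (S : Finset ℕ) (a b : ℤ), (∀ p ∈ S, p.Prime) → a ≠ 0 → b ≠ 0 → 2 ∈ S →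
  (∀ p : ℕ, p.Prime → (p : ℤ) ∣ a * b → p ∈ S) →
  hilInf a b * ∏ p ∈ S, hil p a b = 1

/-- M2 (a): Legendre's theorem (no condition at `2` is needed). -/
def M2_legendre : Prop := ∀ a b : ℤ, a ≠ 0 → b ≠ 0 →
  (∀ p : ℕ, ∀ _ : Fact p.Prime, p ≠ 2 → Sol ℚ_[p] (a : ℚ_[p]) (b : ℚ_[p])) → (0 < a ∨ 0 < b) →
  Sol ℚ (a : ℚ) (b : ℚ)

/-- M2 (b): Hensel. -/
def M2_hensel : Prop := ∀ (p : ℕ) (_ : Fact p.Prime) (a b : ℤ), p ≠ 2 → a ≠ 0 → b ≠ 0 →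
  hil p a b = 1 → Sol ℚ_[p] (a : ℚ_[p]) (b : ℚ_[p])

/-- M3: the local choice at a prime. -/
def M3_local : Prop := ∀ (p : ℕ) (a₁ a₂ a₃ a₄ a₅ : ℤ), p.Prime → a₁ ≠ 0 → a₂ ≠ 0 → a₃ ≠ 0 →
  a₄ ≠ 0 → a₅ ≠ 0 → ∃ m k : ℤ, m ≠ 0 ∧ k ≠ 0 ∧
    hil p m (-(a₁ * a₂)) = hil p a₁ a₂ ∧ hil p k (-(a₃ * a₄)) = hil p a₃ a₄ ∧
    hil p (-(m * a₅)) (-(k * a₅)) = 1

/-- M4 (a): approximation by Dirichlet's theorem: a finite set `S` of primes containing `2`,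
nonzero integers `f p`, a sign `s`, a modulus `N` prime to `S` and a unit `r` modulo `N`. -/
def M4_approx : Prop := ∀ (S : Finset ℕ) (f : ℕ → ℤ) (s : ℤ) (N : ℕ) (r : ℤ),
  (∀ p ∈ S, p.Prime) → 2 ∈ S → (∀ p ∈ S, f p ≠ 0) → (s = 1 ∨ s = -1) → N ≠ 0 →
  (∀ p ∈ S, Nat.Coprime p N) → IsCoprime r (N : ℤ) →
  ∃ (m : ℤ) (l : ℕ), m ≠ 0 ∧ l.Prime ∧ l ∉ S ∧ ¬ (l ∣ N) ∧ 0 < s * m ∧ padicValInt l m = 1 ∧
    (∀ p : ℕ, p.Prime → (p : ℤ) ∣ m → p ∈ S ∨ p = l) ∧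
    (∀ p ∈ S, ∀ b : ℤ, b ≠ 0 → hil p m b = hil p (f p) b) ∧ m ≡ r [ZMOD N]

/-- M4 (b): five variables. -/
def M4_five : Prop := ∀ a : Fin 5 → ℤ, (∀ i, a i ≠ 0) → (∃ i, 0 < a i) → (∃ i, a i < 0) →
  ∃ x : Fin 5 → ℤ, x ≠ 0 ∧ ∑ i, a i * x i ^ 2 = 0

/-- M5: from a symmetric integral matrix to five variables; Meyer's theorem. -/
def M5_meyer : Prop := ∀ (N : ℕ) (M : Matrix (Fin N) (Fin N) ℤ), M.IsSymm → M.det ≠ 0 → 5 ≤ N →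
  (∃ x : Fin N → ℤ, 0 < ∑ i, ∑ j, M i j * x i * x j) →
  (∃ x : Fin N → ℤ, ∑ i, ∑ j, M i j * x i * x j < 0) →
  ∃ x : Fin N → ℤ, x ≠ 0 ∧ ∑ i, ∑ j, M i j * x i * x j = 0

end Vale.Agent.P290.Meyer
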